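import Vale.Agent.P032.H154.Hand
import Vale.Agent.P032.H913.NCEnd

open Set Filter Topology Metric

namespace Vale.Agent.Results.P032.PairFour

/-- Let `V i` be six open subsets of the Euclidean plane without two points at distance one whose
union is dense (by `AllColouringsOpen` a proper 6-colouring of the plane exists if and only if there
are six such sets).  They are contained in sets `U i` which are maximal among the open sets without
two points at distance one.

Let `U` be such a maximal family and `W` its union.  Call `z` a point of order `> n` if no `n` of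
the `U i` have the union `W` near `z`, that is if `z` is in the closure of `W` minus the union of the
`U i`, `i ∈ s`, for every set `s` of at most `n` indices.

There are points `z`, `z'` at distance one such that `z` has order `> 4` and `z'` has order
`> 3`, or such that near `z` the sets `U i`, `i ∈ S`, suffice for a set `S` of four indices and for
no proper subset of it, two complementary pairs of indices in `S` are carried by arcs of the unit
circle about `z`, and the same holds near `z'` for a set `S' ≠ S` of four indices (without the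
arcs). -/
theorem result :
    (∀ V : Fin 6 → Set (EuclideanSpace ℝ (Fin 2)), (∀ i, IsOpen (V i)) →
      (∀ i, ∀ x ∈ V i, ∀ y ∈ V i, dist x y ≠ 1) → Dense (⋃ i, V i) →
      ∃ U : Fin 6 → Set (EuclideanSpace ℝ (Fin 2)), (∀ i, V i ⊆ U i) ∧ Dense (⋃ i, U i) ∧
        ∀ i, Maximal (fun W : Set (EuclideanSpace ℝ (Fin 2)) =>
          IsOpen W ∧ ∀ x ∈ W, ∀ y ∈ W, dist x y ≠ 1) (U i)) ∧
    (∀ U : Fin 6 → Set (EuclideanSpace ℝ (Fin 2)), Dense (⋃ i, U i) →
      (∀ i, Maximal (fun W : Set (EuclideanSpace ℝ (Fin 2)) =>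
        IsOpen W ∧ ∀ x ∈ W, ∀ y ∈ W, dist x y ≠ 1) (U i)) →
      ∃ z z', dist z z' = 1 ∧
        (((∀ s : Set (Fin 6), s.ncard ≤ 4 → z ∈ closure ((⋃ j, U j) \ ⋃ i ∈ s, U i)) ∧
          ∀ s : Set (Fin 6), s.ncard ≤ 3 → z' ∈ closure ((⋃ j, U j) \ ⋃ i ∈ s, U i)) ∨
        ∃ S S' : Set (Fin 6), S ≠ S' ∧
          ((S.ncard = 4 ∧ z ∉ closure ((⋃ j, U j) \ ⋃ i ∈ S, U i) ∧
            ∀ s ⊂ S, z ∈ closure ((⋃ j, U j) \ ⋃ i ∈ s, U i)) ∧
          ∃ a b c d : Fin 6, S = {a, b, c, d} ∧
            ∃ p q, dist p z = 1 ∧ dist q z = 1 ∧ ∃ r > 0,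
              (∀ y, dist y z = 1 → dist y p < r → y ∈ closure (U a) ∧ y ∈ closure (U b) ∧
                y ∉ closure ((⋃ j, U j) \ ⋃ i ∈ ({a, b} : Set (Fin 6)), U i)) ∧
              ∀ y, dist y z = 1 → dist y q < r → y ∈ closure (U c) ∧ y ∈ closure (U d) ∧
                y ∉ closure ((⋃ j, U j) \ ⋃ i ∈ ({c, d} : Set (Fin 6)), U i)) ∧
          (S'.ncard = 4 ∧ z' ∉ closure ((⋃ j, U j) \ ⋃ i ∈ S', U i) ∧
            ∀ s ⊂ S', z' ∈ closure ((⋃ j, U j) \ ⋃ i ∈ s, U i)))) :=
  Vale.Agent.P032.H154.handPairFour Vale.Agent.P032.Words6.H926.tab35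
    Vale.Agent.P032.H913.noCompJ913
    (Vale.Agent.P032.H987.Sil6N.toJ Vale.Agent.P032.H396.sil6N)

end Vale.Agent.Results.P032.PairFour
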