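import Vale.Agent.P032.H20.Master
import Vale.Agent.P032.H913.NCEnd
import Vale.Agent.P032.H20.XDegCEnd

open Set Filter Topology Metric

namespace Vale.Agent.Results.P032.PairMaster

/-- Let `V i` be six open subsets of the Euclidean plane without two points at distance one whose
union is dense (by `AllColouringsOpen` a proper 6-colouring of the plane exists if and only if there
are six such sets).  They are contained in sets `U i` which are maximal among the open sets without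
two points at distance one.

Let `U` be such a maximal family and `W` its union.  A set `s` of indices suffices near `z` if `z`
is not in the closure of `W` minus the union of the `U i`, `i ∈ s`; a point is of type `S` if the
four indices in `S` suffice near it and no proper subset of `S` does.

There are points `z`, `z'` at distance one such that no four indices suffice near `z` and no three
near `z'`, or both of the following hold.  There are a point `z` of type `S` such that two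
complementary pairs of indices in `S` are carried by arcs of the unit circle about `z`, and a point
`z'` of type `S' ≠ S` at distance one from `z`.  And: some point `z` of a type `S` has on its unit
circle a point of some type and two different points `v`, `q` at distance less than two with
complementary triples `X`, `Xᶜ` of indices which suffice near `v` and `q` (and whose sets
accumulate there), two elements of `X` being in `S`, or near every point of the plane some four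
indices suffice and some point of a type has three different points of types on its unit
circle. -/
theorem result :
    (∀ V : Fin 6 → Set (EuclideanSpace ℝ (Fin 2)), (∀ i, IsOpen (V i)) →
      (∀ i, ∀ x ∈ V i, ∀ y ∈ V i, dist x y ≠ 1) → Dense (⋃ i, V i) →
      ∃ U : Fin 6 → Set (EuclideanSpace ℝ (Fin 2)), (∀ i, V i ⊆ U i) ∧ Dense (⋃ i, U i) ∧
        ∀ i, Maximal (fun W : Set (EuclideanSpace ℝ (Fin 2)) =>
          IsOpen W ∧ ∀ x ∈ W, ∀ y ∈ W, dist x y ≠ 1) (U i)) ∧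
    (∀ U : Fin 6 → Set (EuclideanSpace ℝ (Fin 2)), Dense (⋃ i, U i) →
      (∀ i, Maximal (fun W : Set (EuclideanSpace ℝ (Fin 2)) =>
        IsOpen W ∧ ∀ x ∈ W, ∀ y ∈ W, dist x y ≠ 1) (U i)) →
      (∃ z z', dist z z' = 1 ∧
        (∀ s : Set (Fin 6), s.ncard ≤ 4 → z ∈ closure ((⋃ j, U j) \ ⋃ i ∈ s, U i)) ∧
        ∀ s : Set (Fin 6), s.ncard ≤ 3 → z' ∈ closure ((⋃ j, U j) \ ⋃ i ∈ s, U i)) ∨
      ((∃ z z', ∃ S S' : Set (Fin 6), dist z z' = 1 ∧ S ≠ S' ∧
          ((S.ncard = 4 ∧ z ∉ closure ((⋃ j, U j) \ ⋃ i ∈ S, U i) ∧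
            ∀ s ⊂ S, z ∈ closure ((⋃ j, U j) \ ⋃ i ∈ s, U i)) ∧
          ∃ a b c d : Fin 6, S = {a, b, c, d} ∧
            ∃ p q, dist p z = 1 ∧ dist q z = 1 ∧ ∃ r > 0,
              (∀ y, dist y z = 1 → dist y p < r → y ∈ closure (U a) ∧ y ∈ closure (U b) ∧
                y ∉ closure ((⋃ j, U j) \ ⋃ i ∈ ({a, b} : Set (Fin 6)), U i)) ∧
              ∀ y, dist y z = 1 → dist y q < r → y ∈ closure (U c) ∧ y ∈ closure (U d) ∧
                y ∉ closure ((⋃ j, U j) \ ⋃ i ∈ ({c, d} : Set (Fin 6)), U i)) ∧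
          (S'.ncard = 4 ∧ z' ∉ closure ((⋃ j, U j) \ ⋃ i ∈ S', U i) ∧
            ∀ s ⊂ S', z' ∈ closure ((⋃ j, U j) \ ⋃ i ∈ s, U i))) ∧
        ((∃ z v q y, ∃ S X S' : Set (Fin 6),
          (S.ncard = 4 ∧ z ∉ closure ((⋃ j, U j) \ ⋃ i ∈ S, U i) ∧
            ∀ s ⊂ S, z ∈ closure ((⋃ j, U j) \ ⋃ i ∈ s, U i)) ∧
          (S'.ncard = 4 ∧ y ∉ closure ((⋃ j, U j) \ ⋃ i ∈ S', U i) ∧
            ∀ s ⊂ S', y ∈ closure ((⋃ j, U j) \ ⋃ i ∈ s, U i)) ∧
          X.ncard = 3 ∧ (S ∩ X).ncard = 2 ∧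
          dist v z = 1 ∧ dist q z = 1 ∧ dist y z = 1 ∧ v ≠ q ∧ dist v q < 2 ∧
          (v ∉ closure ((⋃ j, U j) \ ⋃ i ∈ X, U i) ∧ ∀ i ∈ X, v ∈ closure (U i)) ∧
          q ∉ closure ((⋃ j, U j) \ ⋃ i ∈ Xᶜ, U i) ∧ ∀ i ∈ Xᶜ, q ∈ closure (U i)) ∨
        ((∀ z, ∃ s : Set (Fin 6), s.ncard ≤ 4 ∧ z ∉ closure ((⋃ j, U j) \ ⋃ i ∈ s, U i)) ∧
          ∃ z y1 y2 y3, ∃ S S1 S2 S3 : Set (Fin 6),
            (S.ncard = 4 ∧ z ∉ closure ((⋃ j, U j) \ ⋃ i ∈ S, U i) ∧
              ∀ s ⊂ S, z ∈ closure ((⋃ j, U j) \ ⋃ i ∈ s, U i)) ∧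
            (S1.ncard = 4 ∧ y1 ∉ closure ((⋃ j, U j) \ ⋃ i ∈ S1, U i) ∧
              ∀ s ⊂ S1, y1 ∈ closure ((⋃ j, U j) \ ⋃ i ∈ s, U i)) ∧
            (S2.ncard = 4 ∧ y2 ∉ closure ((⋃ j, U j) \ ⋃ i ∈ S2, U i) ∧
              ∀ s ⊂ S2, y2 ∈ closure ((⋃ j, U j) \ ⋃ i ∈ s, U i)) ∧
            (S3.ncard = 4 ∧ y3 ∉ closure ((⋃ j, U j) \ ⋃ i ∈ S3, U i) ∧
              ∀ s ⊂ S3, y3 ∈ closure ((⋃ j, U j) \ ⋃ i ∈ s, U i)) ∧
            dist y1 z = 1 ∧ dist y2 z = 1 ∧ dist y3 z = 1 ∧ y1 ≠ y2 ∧ y1 ≠ y3 ∧ y2 ≠ y3)))) :=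
  Vale.Agent.P032.H20.handMaster Vale.Agent.P032.Words6.H926.tab35
    Vale.Agent.P032.H913.noCompJ913
    (Vale.Agent.P032.H987.Sil6N.toJ Vale.Agent.P032.H396.sil6N) Vale.Agent.P032.H20.xDegC20

end Vale.Agent.Results.P032.PairMaster
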