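import Vale.Agent.P032.H532.PrismP

open Set Filter Topology Metric

namespace Vale.Agent.Results.P032.SixPrism

/-- Let `V i` be six open subsets of the Euclidean plane without two points at distance one whose
union is dense (by `AllColouringsOpen` a proper 6-colouring of the plane exists if and only if there
are six such sets).  They are contained in sets `U i` which are maximal among the open sets without
two points at distance one.

Let `U` be such a maximal family and `W` its union, and let `x` be a point near which no five of the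
sets suffice: `x` is in the closure of `W` minus the union of any five of the `U i`.  Let `c` be
any numbering of the six sets by the residues modulo 6.  Then for one of the nine pairs `{a, b}` of
the form `{c i, c (i + 2)}` or `{c i, c (i + 3)}` (the edges of a triangular prism) every point of
the unit circle about `x` is in the closure of a set `U j` with `j` different from `a` and `b`. -/
theorem result :
    (∀ V : Fin 6 → Set (EuclideanSpace ℝ (Fin 2)), (∀ i, IsOpen (V i)) →
      (∀ i, ∀ x ∈ V i, ∀ y ∈ V i, dist x y ≠ 1) → Dense (⋃ i, V i) →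
      ∃ U : Fin 6 → Set (EuclideanSpace ℝ (Fin 2)), (∀ i, V i ⊆ U i) ∧ Dense (⋃ i, U i) ∧
        ∀ i, Maximal (fun W : Set (EuclideanSpace ℝ (Fin 2)) =>
          IsOpen W ∧ ∀ x ∈ W, ∀ y ∈ W, dist x y ≠ 1) (U i)) ∧
    (∀ U : Fin 6 → Set (EuclideanSpace ℝ (Fin 2)), Dense (⋃ i, U i) →
      (∀ i, Maximal (fun W : Set (EuclideanSpace ℝ (Fin 2)) =>
        IsOpen W ∧ ∀ x ∈ W, ∀ y ∈ W, dist x y ≠ 1) (U i)) →
      ∀ x : EuclideanSpace ℝ (Fin 2),
        (∀ s : Set (Fin 6), s.ncard ≤ 5 → x ∈ closure ((⋃ j, U j) \ ⋃ i ∈ s, U i)) →
        ∀ c : Fin 6 → Fin 6, Function.Injective c →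
          ∃ i k : Fin 6, (k = 2 ∨ k = 3) ∧ ∀ y, dist y x = 1 →
            ∃ j, j ≠ c i ∧ j ≠ c (i + k) ∧ y ∈ closure (U j)) :=
  Vale.Agent.P032.H532.handSixPrism

end Vale.Agent.Results.P032.SixPrism
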