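import Vale.Agent.P032.H169.SixTop
import Vale.Agent.P032.H928.SixS

open Set Filter Topology Metric

namespace Vale.Agent.Results.P032.SixTame

/-- Let `V i` be six open subsets of the Euclidean plane without two points at distance one whose
union is dense (by `AllColouringsOpen` a proper 6-colouring of the plane exists if and only if there
are six such sets).  They are contained in sets `U i` which are maximal among the open sets without
two points at distance one.

Let `U` be such a maximal family and `W` its union, and let `x` be a point near which no five of the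
sets suffice: `x` is in the closure of `W` minus the union of any five of the `U i`.  Then there are
points `w ≠ x` as near to `x` as we like which are in the closures of three of the sets, or there
is an index `i` such that
* near every point `y` of the unit circle about `x` the five sets other than `U i` suffice, or `y`
  is in the closures of `U i` and of two other sets,
* the points of the circle near which the five sets other than `U i` suffice are dense in it,
* the same holds for a second index `k`, or the five sets other than `U i` suffice near every point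
  of the circle other than `a` and the antipode of `a`. -/
theorem result :
    (∀ V : Fin 6 → Set (EuclideanSpace ℝ (Fin 2)), (∀ i, IsOpen (V i)) →
      (∀ i, ∀ x ∈ V i, ∀ y ∈ V i, dist x y ≠ 1) → Dense (⋃ i, V i) →
      ∃ U : Fin 6 → Set (EuclideanSpace ℝ (Fin 2)), (∀ i, V i ⊆ U i) ∧ Dense (⋃ i, U i) ∧
        ∀ i, Maximal (fun W : Set (EuclideanSpace ℝ (Fin 2)) =>
          IsOpen W ∧ ∀ x ∈ W, ∀ y ∈ W, dist x y ≠ 1) (U i)) ∧
    (∀ U : Fin 6 → Set (EuclideanSpace ℝ (Fin 2)), Dense (⋃ i, U i) →
      (∀ i, Maximal (fun W : Set (EuclideanSpace ℝ (Fin 2)) =>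
        IsOpen W ∧ ∀ x ∈ W, ∀ y ∈ W, dist x y ≠ 1) (U i)) →
      ∀ x : EuclideanSpace ℝ (Fin 2),
        (∀ s : Set (Fin 6), s.ncard ≤ 5 → x ∈ closure ((⋃ j, U j) \ ⋃ i ∈ s, U i)) →
        (∀ r > 0, ∃ w, w ≠ x ∧ dist w x < r ∧
          ∃ X : Set (Fin 6), X.ncard = 3 ∧ ∀ i ∈ X, w ∈ closure (U i)) ∨
        ∃ i, (∀ y, dist y x = 1 → (∃ X : Set (Fin 6), X.ncard = 3 ∧ i ∈ X ∧ ∀ j ∈ X,
            y ∈ closure (U j)) ∨ y ∉ closure ((⋃ j, U j) \ ⋃ j ∈ ({i} : Set (Fin 6))ᶜ, U j)) ∧
          (∀ y, dist y x = 1 → ∀ ε > 0, ∃ q, dist q x = 1 ∧ dist q y < ε ∧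
            q ∉ closure ((⋃ j, U j) \ ⋃ j ∈ ({i} : Set (Fin 6))ᶜ, U j)) ∧
          ((∃ k, k ≠ i ∧ ∀ y, dist y x = 1 → ∀ ε > 0, ∃ q, dist q x = 1 ∧ dist q y < ε ∧
            q ∉ closure ((⋃ j, U j) \ ⋃ j ∈ ({k} : Set (Fin 6))ᶜ, U j)) ∨
          ∃ a, dist a x = 1 ∧ ∀ y, dist y x = 1 → y ≠ a → dist y a ≠ 2 →
            y ∉ closure ((⋃ j, U j) \ ⋃ j ∈ ({i} : Set (Fin 6))ᶜ, U j))) :=
  Vale.Agent.P032.H928.handSixSilent Vale.Agent.P032.H169.endW

end Vale.Agent.Results.P032.SixTame
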